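import Mathlib

/-! Bass' stable range theorem with the right bound. -/

namespace Vale.Agent.P246.H369

/-- the key fact on semisimple rings -/
theorem semisimple_key {T : Type} [Ring T] [IsSemisimpleRing T] (X Y e : T)
    (hK : ∀ s, s * Y = 0 → s * e = s) (hX : ∀ s, e * s * X ∈ Ideal.span {Y}) :
    X ∈ Ideal.span {Y} := by
  have hart : IsArtinianRing T := inferInstance
  -- the left ideal of the elements `s` with `e T s = 0`
  let T₀ : Submodule T T :=
    { carrier := {s | ∀ r, e * r * s = 0}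
      add_mem' := fun {a b} ha hb r => by rw [mul_add, ha r, hb r, add_zero]
      zero_mem' := fun r => mul_zero _
      smul_mem' := fun c x hx r => by
        have := hx (r * c)
        rw [smul_eq_mul, ← mul_assoc, mul_assoc e r c]
        exact this }
  have hT₀ : ∀ s, s ∈ T₀ ↔ ∀ r, e * r * s = 0 := fun s => Iff.rfl
  let f : T₀ →ₗ[T] T₀ := (LinearMap.toSpanSingleton T T Y).restrict (p := T₀) (q := T₀) (by
    intro s hs
    rw [hT₀] at hs ⊢
    intro r
    rw [LinearMap.toSpanSingleton_apply, smul_eq_mul, ← mul_assoc, hs r, zero_mul])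
  have hf : ∀ s : T₀, ((f s : T₀) : T) = (s : T) * Y := fun s => rfl
  have hinj : Function.Injective f := by
    rw [injective_iff_map_eq_zero]
    intro s hs
    have h1 : (s : T) * Y = 0 := by rw [← hf, hs]; rfl
    have h2 := hK _ h1
    obtain ⟨h, hh, hspan⟩ := IsSemisimpleRing.ideal_eq_span_idempotent (Ideal.span {(s : T)})
    have h3 : h ∈ Ideal.span {(s : T)} := by rw [hspan]; exact Ideal.mem_span_singleton_self h
    obtain ⟨r, hr⟩ := Ideal.mem_span_singleton'.1 h3
    have h4 : (s : T) ∈ Ideal.span {h} := by rw [← hspan]; exact Ideal.mem_span_singleton_self _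
    obtain ⟨q, hq⟩ := Ideal.mem_span_singleton'.1 h4
    have h5 : h = 0 := by
      have h6 : h * h = h := hh
      rw [← h6, ← hr]
      calc r * (s : T) * (r * s) = r * ((s : T) * e) * (r * s) := by rw [h2]
        _ = r * (s : T) * (e * r * s) := by simp only [mul_assoc]
        _ = 0 := by rw [s.2 r, mul_zero]
    have h7 : (s : T) = 0 := by rw [← hq, h5, mul_zero]
    exact Subtype.ext h7
  have hsur := IsArtinian.surjective_of_injective_endomorphism f hinj
  obtain ⟨C, hC⟩ := exists_isCompl (Ideal.span {Y} : Ideal T)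
  have hX' : X ∈ Ideal.span {Y} ⊔ C := by rw [hC.sup_eq_top]; trivial
  obtain ⟨u, hu, c, hc, huc⟩ := Submodule.mem_sup.1 hX'
  have h8 : c ∈ T₀ := by
    rw [hT₀]
    intro r
    have h9 : e * r * c ∈ (Ideal.span {Y} : Ideal T) := by
      have : e * r * c = e * r * X - e * r * u := by rw [← huc]; noncomm_ring
      rw [this]
      exact Ideal.sub_mem _ (hX r) (Ideal.mul_mem_left _ _ hu)
    have h10 : e * r * c ∈ C := Ideal.mul_mem_left _ _ hc
    have h11 : e * r * c ∈ (Ideal.span {Y} : Ideal T) ⊓ C := ⟨h9, h10⟩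
    rw [hC.inf_eq_bot] at h11
    exact h11
  obtain ⟨s, hs⟩ := hsur ⟨c, h8⟩
  have h12 : (s : T) * Y = c := by rw [← hf, hs]
  rw [← huc]
  refine Ideal.add_mem _ hu ?_
  rw [← h12]
  exact Ideal.mul_mem_left _ _ (Ideal.mem_span_singleton_self _)

/-- general position in a semisimple ring -/
theorem semisimple_max {T : Type} [Ring T] [IsSemisimpleRing T] (J : Ideal T) (y x : T)
    (D : Set T) (hD : ∀ t : T, ∃ l l' : T, l' * l = 1 ∧ (∀ s, l * s = s * l) ∧ l * t ∈ D)
    (hmax : ∀ t ∈ D, ¬ (J ⊔ Ideal.span {y} < J ⊔ Ideal.span {y + t * x})) :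
    x ∈ J ⊔ Ideal.span {y} := by
  obtain ⟨j, hj, hJ⟩ := IsSemisimpleRing.ideal_eq_span_idempotent J
  have hjj : j * j = j := hj
  have hmemJ : ∀ s, s ∈ J ↔ s * j = s := by
    intro s
    rw [hJ]
    constructor
    · intro h
      obtain ⟨r, rfl⟩ := Ideal.mem_span_singleton'.1 h
      rw [mul_assoc, hjj]
    · intro h
      rw [← h]
      exact Ideal.mul_mem_left _ _ (Ideal.mem_span_singleton_self _)
  set g := 1 - j with hg
  have hmemJ' : ∀ s, s ∈ J ↔ s * g = 0 := by
    intro s
    rw [hmemJ, hg, mul_sub, mul_one, sub_eq_zero, eq_comm]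
  have hmem : ∀ z, z ∈ J ⊔ Ideal.span {y} ↔ z * g ∈ Ideal.span {y * g} := by
    intro z
    constructor
    · intro h
      obtain ⟨a, ha, b, hb, rfl⟩ := Submodule.mem_sup.1 h
      obtain ⟨r, rfl⟩ := Ideal.mem_span_singleton'.1 hb
      rw [add_mul, (hmemJ' a).1 ha, zero_add, mul_assoc]
      exact Ideal.mul_mem_left _ _ (Ideal.mem_span_singleton_self _)
    · intro h
      obtain ⟨r, hr⟩ := Ideal.mem_span_singleton'.1 h
      have h1 : z - r * y ∈ J := by
        rw [hmemJ', sub_mul, ← hr, mul_assoc, sub_self]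
      have h2 : z = (z - r * y) + r * y := by abel
      rw [h2]
      exact Submodule.add_mem_sup h1 (Ideal.mul_mem_left _ _ (Ideal.mem_span_singleton_self _))
  -- the annihilator of `y` modulo `J`
  let K : Submodule T T :=
    { carrier := {s | s * (y * g) = 0}
      add_mem' := fun {a b} ha hb => by
        change (a + b) * (y * g) = 0
        rw [add_mul, show a * (y * g) = 0 from ha, show b * (y * g) = 0 from hb, add_zero]
      zero_mem' := zero_mul _
      smul_mem' := fun c x hx => by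
        change c * x * (y * g) = 0
        rw [mul_assoc, show x * (y * g) = 0 from hx, mul_zero] }
  obtain ⟨e, he, hKe⟩ := IsSemisimpleRing.ideal_eq_span_idempotent K
  have hee : e * e = e := he
  have heK : e * (y * g) = 0 := by
    have : e ∈ K := by rw [hKe]; exact Ideal.mem_span_singleton_self _
    exact this
  rw [hmem]
  refine semisimple_key (x * g) (y * g) e (fun s hs => ?_) (fun s => ?_)
  · have : s ∈ Ideal.span {e} := by rw [← hKe]; exact hs
    obtain ⟨r, rfl⟩ := Ideal.mem_span_singleton'.1 this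
    rw [mul_assoc, hee]
  · by_contra hcon
    obtain ⟨l, l', hl, hlc, hlD⟩ := hD (e * s)
    refine hmax _ hlD ?_
    have h1 : e * y ∈ J := by rw [hmemJ', mul_assoc]; exact heK
    have h2 : y ∈ J ⊔ Ideal.span {y + l * (e * s) * x} := by
      have h3 : (1 - e) * (l * (e * s) * x) = 0 := by
        have h4 : (1 - e) * (l * (e * s) * x) = (1 - e) * l * e * s * x := by noncomm_ring
        rw [h4, ← hlc (1 - e), mul_assoc l, sub_mul, one_mul, hee, sub_self]
        simp
      have h5 : y = e * y + (1 - e) * (y + l * (e * s) * x) := by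
        rw [mul_add, h3]; noncomm_ring
      have h6 : e * y + (1 - e) * (y + l * (e * s) * x) ∈
          J ⊔ Ideal.span {y + l * (e * s) * x} :=
        Submodule.add_mem_sup h1 (Ideal.mul_mem_left _ _ (Ideal.mem_span_singleton_self _))
      rwa [← h5] at h6
    refine lt_of_le_of_ne ?_ fun heq => hcon ?_
    · refine sup_le le_sup_left ?_
      rw [Ideal.span_singleton_le_iff_mem]
      exact h2
    · have h6 : y + l * (e * s) * x ∈ J ⊔ Ideal.span {y + l * (e * s) * x} :=
        (le_sup_right : Ideal.span {y + l * (e * s) * x} ≤ _) (Ideal.mem_span_singleton_self _)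
      rw [← heq] at h6
      have h7 : y ∈ J ⊔ Ideal.span {y} :=
        (le_sup_right : Ideal.span {y} ≤ _) (Ideal.mem_span_singleton_self _)
      have h8 : l * (e * s) * x ∈ J ⊔ Ideal.span {y} := by
        have := Ideal.sub_mem _ h6 h7
        rwa [add_sub_cancel_left] at this
      have h9 : e * s * x ∈ J ⊔ Ideal.span {y} := by
        have := Ideal.mul_mem_left _ l' h8
        rwa [← mul_assoc, ← mul_assoc, hl, one_mul] at this
      have h10 := (hmem _).1 h9
      rwa [mul_assoc] at h10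

section

variable (A : Type) [CommRing A]

/-- the elements outside all the minimal primes -/
def W : Submonoid A where
  carrier := {a | ∀ P ∈ minimalPrimes A, a ∉ P}
  one_mem' := fun P hP h => by
    have : P.IsPrime := hP.1.1
    exact this.ne_top ((Ideal.eq_top_iff_one P).2 h)
  mul_mem' := fun {a b} ha hb P hP h => by
    have : P.IsPrime := hP.1.1
    rcases this.mem_or_mem h with h | h
    · exact ha P hP h
    · exact hb P hP h

theorem mem_W {a : A} : a ∈ W A ↔ ∀ P ∈ minimalPrimes A, a ∉ P := Iff.rfl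

variable [IsNoetherianRing A]

theorem comap_minimal (Q : Ideal (Localization (W A))) [Q.IsPrime] :
    Q.comap (algebraMap A (Localization (W A))) ∈ minimalPrimes A := by
  have h1 := (IsLocalization.isPrime_iff_isPrime_disjoint (W A) (Localization (W A)) Q).1
    inferInstance
  obtain ⟨h2, h3⟩ := h1
  have hfin : (minimalPrimes A).Finite := minimalPrimes.finite_of_isNoetherianRing A
  have h4 : ((Q.comap (algebraMap A (Localization (W A))) : Ideal A) : Set A) ⊆
      ⋃ P ∈ minimalPrimes A, (P : Set A) := by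
    intro a ha
    by_contra hcon
    have : a ∈ W A := by
      intro P hP haP
      exact hcon (Set.mem_iUnion₂.2 ⟨P, hP, haP⟩)
    exact Set.disjoint_left.1 h3 this ha
  have h5 := (Ideal.subset_union_prime_finite hfin (f := id) ⊥ ⊥ (fun P hP _ _ => hP.1.1)).1 h4
  obtain ⟨P, hP, hle⟩ := h5
  have h6 : P ≤ Q.comap (algebraMap A (Localization (W A))) := hP.2 ⟨h2, bot_le⟩ hle
  have h7 : Q.comap (algebraMap A (Localization (W A))) = P := le_antisymm hle h6
  rw [h7]
  exact hP

theorem artinian : IsArtinianRing (Localization (W A)) := by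
  rw [isArtinianRing_iff_isNoetherianRing_krullDimLE_zero]
  refine ⟨IsLocalization.isNoetherianRing (W A) _ inferInstance, ?_⟩
  rw [Ring.krullDimLE_zero_iff]
  intro Q hQ
  obtain ⟨M, hM, hQM⟩ := Q.exists_le_maximal hQ.ne_top
  have hMp : M.IsPrime := hM.isPrime
  have h1 := comap_minimal A Q
  have h2 := comap_minimal A M
  have h3 : Q.comap (algebraMap A (Localization (W A))) ≤
      M.comap (algebraMap A (Localization (W A))) := Ideal.comap_mono hQM
  have h4 := h2.2 h1.1 h3
  have h5 := le_antisymm h3 h4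
  have h6 : Q = M := by
    have e1 := IsLocalization.map_under (W A) (Localization (W A)) Q
    have e2 := IsLocalization.map_under (W A) (Localization (W A)) M
    rw [Ideal.under_def] at e1 e2
    rw [← e1, h5, e2]
  rw [h6]
  exact hM

end

open TensorProduct

theorem exists_kill {A M : Type} [CommRing A] [AddCommGroup M] [Module A M] [IsNoetherian A M]
    (w : Submonoid A) (K : Submodule A M) (hK : ∀ r ∈ K, ∃ c ∈ w, c • r = 0) :
    ∃ c ∈ w, ∀ r ∈ K, c • r = 0 := by
  have key : ∀ N : Submodule A M, N.FG → N ≤ K → ∃ c ∈ w, ∀ r ∈ N, c • r = 0 := by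
    intro N hN
    refine Submodule.fg_induction (motive := fun N _ => N ≤ K → ∃ c ∈ w, ∀ r ∈ N, c • r = 0)
      ?_ ?_ N hN
    · intro x hx
      obtain ⟨c, hc, h⟩ := hK x (hx (Submodule.mem_span_singleton_self x))
      refine ⟨c, hc, fun r hr => ?_⟩
      obtain ⟨a, rfl⟩ := Submodule.mem_span_singleton.1 hr
      rw [smul_comm, h, smul_zero]
    · intro N₁ N₂ _ _ h₁ h₂ h
      obtain ⟨c₁, hc₁, k₁⟩ := h₁ (le_sup_left.trans h)
      obtain ⟨c₂, hc₂, k₂⟩ := h₂ (le_sup_right.trans h)
      refine ⟨c₁ * c₂, w.mul_mem hc₁ hc₂, fun r hr => ?_⟩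
      obtain ⟨a, ha, b, hb, rfl⟩ := Submodule.mem_sup.1 hr
      rw [smul_add, mul_smul, mul_smul, k₂ b hb, smul_zero, smul_comm, k₁ a ha, smul_zero,
        add_zero]
  exact key K (IsNoetherian.noetherian K) le_rfl

theorem jac_nil {S : Type} [Ring S] [IsArtinianRing S] {s : S} (hs : s ∈ Ring.jacobson S) :
    ∃ n : ℕ, s ^ n = 0 := by
  obtain ⟨n, hn⟩ := IsSemiprimaryRing.isNilpotent (R := S)
  refine ⟨n, ?_⟩
  have h : ∀ k : ℕ, s ^ k ∈ Ring.jacobson S ^ k := by
    intro k
    induction k with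
    | zero =>
      rw [pow_zero, (Ring.jacobson S).pow_zero, Ideal.one_eq_top]
      trivial
    | succ k ih =>
      rw [pow_succ', Ideal.IsTwoSided.pow_succ]
      exact Ideal.mul_mem_mul hs ih
  have h2 := h n
  rw [hn] at h2
  exact h2

/-- the data of a semisimple generic fibre -/
structure Gen (A R T : Type) [CommRing A] [Ring R] [Algebra A R] [Ring T] (w : Submonoid A)
    (ψ : R →+* T) : Prop where
  unit : ∀ a ∈ w, ∃ u : T, u * ψ (algebraMap A R a) = 1
  cen : ∀ (a : A) (t : T), ψ (algebraMap A R a) * t = t * ψ (algebraMap A R a)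
  frac : ∀ t : T, ∃ a ∈ w, ∃ r : R, ψ (algebraMap A R a) * t = ψ r

theorem Gen.quot {A R S : Type} [CommRing A] [Ring R] [Algebra A R] [Ring S] {w : Submonoid A}
    {φ : R →+* S} (h : Gen A R S w φ) (I : Ideal S) [I.IsTwoSided] :
    Gen A R (S ⧸ I) w ((Ideal.Quotient.mk I).comp φ) where
  unit := fun a ha => by
    obtain ⟨u, hu⟩ := h.unit a ha
    refine ⟨Ideal.Quotient.mk I u, ?_⟩
    rw [RingHom.comp_apply, ← map_mul, hu, map_one]
  cen := fun a t => by
    obtain ⟨s, rfl⟩ := Ideal.Quotient.mk_surjective t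
    rw [RingHom.comp_apply, ← map_mul, ← map_mul, h.cen]
  frac := fun t => by
    obtain ⟨s, rfl⟩ := Ideal.Quotient.mk_surjective t
    obtain ⟨a, ha, r, hr⟩ := h.frac s
    refine ⟨a, ha, r, ?_⟩
    rw [RingHom.comp_apply, RingHom.comp_apply, ← map_mul, hr]

theorem gen_tensor (A R : Type) [CommRing A] [Ring R] [Algebra A R] (w : Submonoid A) :
    Gen A R (Localization w ⊗[A] R) w
      (Algebra.TensorProduct.includeRight : R →ₐ[A] Localization w ⊗[A] R).toRingHom where
  unit := fun a ha => by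
    have h1 : IsUnit (algebraMap A (Localization w) a) :=
      IsLocalization.map_units _ (⟨a, ha⟩ : w)
    obtain ⟨v, hv⟩ := h1.exists_left_inv
    refine ⟨algebraMap (Localization w) _ v, ?_⟩
    have h2 : (Algebra.TensorProduct.includeRight : R →ₐ[A] Localization w ⊗[A] R).toRingHom
        (algebraMap A R a) = algebraMap A (Localization w ⊗[A] R) a :=
      (Algebra.TensorProduct.includeRight : R →ₐ[A] Localization w ⊗[A] R).commutes a
    rw [h2, IsScalarTower.algebraMap_apply A (Localization w) (Localization w ⊗[A] R), ← map_mul,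
      hv, map_one]
  cen := fun a t => by
    have h2 : (Algebra.TensorProduct.includeRight : R →ₐ[A] Localization w ⊗[A] R).toRingHom
        (algebraMap A R a) = algebraMap A (Localization w ⊗[A] R) a :=
      (Algebra.TensorProduct.includeRight : R →ₐ[A] Localization w ⊗[A] R).commutes a
    rw [h2, Algebra.commutes]
  frac := fun s => by
    obtain ⟨⟨r, a⟩, h⟩ := IsLocalizedModule.surj w (TensorProduct.mk A (Localization w) R 1) s
    refine ⟨a, a.2, r, ?_⟩
    have h2 : (Algebra.TensorProduct.includeRight : R →ₐ[A] Localization w ⊗[A] R).toRingHom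
        (algebraMap A R a) = algebraMap A (Localization w ⊗[A] R) a :=
      (Algebra.TensorProduct.includeRight : R →ₐ[A] Localization w ⊗[A] R).commutes a
    rw [h2, ← Algebra.smul_def]
    exact h

theorem exists_gen (A R : Type) [CommRing A] [IsNoetherianRing A] [Ring R] [Algebra A R]
    [Module.Finite A R] : ∃ (T : Type) (_ : Ring T) (_ : IsSemisimpleRing T) (ψ : R →+* T),
      Gen A R T (W A) ψ ∧ ∃ a ∈ W A, ∀ n : R, ψ n = 0 → ∃ e : ℕ, a • n ^ e = 0 := by
  have hB : IsArtinianRing (Localization (W A)) := artinian A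
  have hS : IsArtinianRing (Localization (W A) ⊗[A] R) :=
    IsArtinianRing.of_finite (Localization (W A)) _
  have hRn : IsNoetherian A R := inferInstance
  refine ⟨_ ⧸ Ring.jacobson (Localization (W A) ⊗[A] R), inferInstance, inferInstance, _,
    (gen_tensor A R (W A)).quot (Ring.jacobson (Localization (W A) ⊗[A] R)), ?_⟩
  obtain ⟨a, ha, h⟩ := exists_kill (W A)
    (LinearMap.ker (TensorProduct.mk A (Localization (W A)) R 1)) (by
      intro r hr
      rw [LinearMap.mem_ker] at hr
      obtain ⟨c, hc⟩ := IsLocalizedModule.exists_of_eq (S := W A)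
        (f := TensorProduct.mk A (Localization (W A)) R 1) (x₁ := r) (x₂ := 0)
        (by rw [hr, map_zero])
      exact ⟨c, c.2, by rw [smul_zero] at hc; exact hc⟩)
  refine ⟨a, ha, fun n hn => ?_⟩
  rw [RingHom.comp_apply, Ideal.Quotient.eq_zero_iff_mem] at hn
  obtain ⟨e, he⟩ := jac_nil hn
  refine ⟨e, h _ ?_⟩
  rw [LinearMap.mem_ker]
  rw [← map_pow] at he
  exact he

theorem exists_one_sub {R : Type} [Ring R] {m : Ideal R} (hm : m.IsMaximal) {s : R} (hs : s ∉ m) :
    ∃ u : R, 1 - u * s ∈ m := by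
  have h1 : m < m ⊔ Ideal.span {s} := by
    refine lt_of_le_of_ne le_sup_left fun h => hs ?_
    have h2 : Ideal.span {s} ≤ m := by
      calc Ideal.span {s} ≤ m ⊔ Ideal.span {s} := le_sup_right
        _ = m := h.symm
    exact h2 (Ideal.mem_span_singleton_self s)
  have h2 : m ⊔ Ideal.span {s} = ⊤ := hm.1.2 _ h1
  have h3 : (1 : R) ∈ m ⊔ Ideal.span {s} := by rw [h2]; trivial
  obtain ⟨q, hq, p, hp, hpq⟩ := Submodule.mem_sup.1 h3
  obtain ⟨u, rfl⟩ := Ideal.mem_span_singleton'.1 hp
  refine ⟨u, ?_⟩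
  rw [← hpq, add_sub_cancel_right]
  exact hq

theorem step_T {A R T : Type} [CommRing A] [Ring R] [Algebra A R] [Ring T] [IsSemisimpleRing T]
    {w : Submonoid A} {ψ : R →+* T} (h : Gen A R T w ψ)
    (hnil : ∃ a ∈ w, ∀ n : R, ψ n = 0 → ∃ e : ℕ, a • n ^ e = 0) (J₀ : Ideal R) (y x : R) :
    ∃ (r : R) (c : A), c ∈ w ∧
    ∀ m : Ideal R, m.IsMaximal → J₀ ≤ m → y + r * x ∈ m → algebraMap A R c ∉ m → x ∈ m := by
  -- choose the element
  let F : R → Ideal T := fun r => Ideal.map ψ J₀ ⊔ Ideal.span {ψ (y + r * x)}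
  obtain ⟨_, ⟨r, rfl⟩, hmax⟩ := (wellFounded_gt (α := Ideal T)).has_min (Set.range F) ⟨_, 0, rfl⟩
  have hx : ψ x ∈ Ideal.map ψ J₀ ⊔ Ideal.span {ψ (y + r * x)} := by
    refine semisimple_max (Ideal.map ψ J₀) (ψ (y + r * x)) (ψ x) (Set.range ψ) (fun t => ?_)
      ?_
    · obtain ⟨a, ha, r', h'⟩ := h.frac t
      obtain ⟨u, hu⟩ := h.unit a ha
      exact ⟨ψ (algebraMap A R a), u, hu, fun s => h.cen a s, ⟨r', h'.symm⟩⟩
    · rintro _ ⟨r', rfl⟩ hlt
      refine hmax (F (r + r')) ⟨_, rfl⟩ ?_
      have : ψ (y + r * x) + ψ r' * ψ x = ψ (y + (r + r') * x) := by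
        rw [← map_mul, ← map_add]
        congr 1
        noncomm_ring
      rw [this] at hlt
      exact hlt
  -- clear denominators
  let J : Ideal R := J₀ ⊔ Ideal.span {y + r * x}
  let L : Ideal T :=
    { carrier := {t | ∃ a ∈ w, ∃ j ∈ J, ψ (algebraMap A R a) * t = ψ j}
      add_mem' := by
        rintro s t ⟨a, ha, j, hj, hs⟩ ⟨b, hb, k, hk, ht⟩
        refine ⟨a * b, w.mul_mem ha hb, algebraMap A R b * j + algebraMap A R a * k,
          J.add_mem (J.mul_mem_left _ hj) (J.mul_mem_left _ hk), ?_⟩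
        rw [map_add, map_mul ψ, map_mul ψ, ← hs, ← ht, map_mul (algebraMap A R), map_mul ψ,
          mul_add, mul_assoc, mul_assoc (ψ (algebraMap A R a)), ← mul_assoc, h.cen a, mul_assoc]
      zero_mem' := ⟨1, w.one_mem, 0, J.zero_mem, by simp⟩
      smul_mem' := by
        rintro s t ⟨a, ha, j, hj, ht⟩
        obtain ⟨b, hb, r', hr'⟩ := h.frac s
        refine ⟨b * a, w.mul_mem hb ha, r' * j, J.mul_mem_left _ hj, ?_⟩
        rw [map_mul ψ, ← hr', ← ht, map_mul (algebraMap A R), map_mul ψ, smul_eq_mul]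
        calc ψ (algebraMap A R b) * ψ (algebraMap A R a) * (s * t)
            = ψ (algebraMap A R b) * (ψ (algebraMap A R a) * s) * t := by
              simp only [mul_assoc]
          _ = ψ (algebraMap A R b) * (s * ψ (algebraMap A R a)) * t := by rw [h.cen a s]
          _ = ψ (algebraMap A R b) * s * (ψ (algebraMap A R a) * t) := by
              simp only [mul_assoc] }
  have hL : ∀ j ∈ J, ψ j ∈ L := fun j hj => ⟨1, w.one_mem, j, hj, by simp⟩
  have hle : Ideal.map ψ J₀ ⊔ Ideal.span {ψ (y + r * x)} ≤ L := by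
    refine sup_le (Ideal.map_le_iff_le_comap.2 fun j hj => hL j (le_sup_left (α := Ideal R) hj)) ?_
    rw [Ideal.span_singleton_le_iff_mem]
    exact hL _ ((le_sup_right : Ideal.span {y + r * x} ≤ J) (Ideal.mem_span_singleton_self _))
  obtain ⟨a₂, ha₂, j, hj, hj'⟩ := hle hx
  obtain ⟨a₁, ha₁, hn⟩ := hnil
  refine ⟨r, a₁ * a₂, w.mul_mem ha₁ ha₂, fun m hm hJm hy hc => ?_⟩
  -- central elements
  have hcen : ∀ (a : A) (s : R), algebraMap A R a * s = s * algebraMap A R a :=
    fun a s => Algebra.commutes a s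
  have hJm' : J ≤ m := sup_le hJm ((Ideal.span_singleton_le_iff_mem _).2 hy)
  -- if a multiple of `s` by a central element outside belongs to `m` then so does `s`
  have hprime : ∀ (a : A) (s : R), algebraMap A R a ∉ m → algebraMap A R a * s ∈ m → s ∈ m := by
    intro a s ha hs
    by_contra hsm
    obtain ⟨u, hu⟩ := exists_one_sub hm hsm
    refine ha ?_
    have h3 : algebraMap A R a = algebraMap A R a * (1 - u * s) + u * (algebraMap A R a * s) := by
      rw [← mul_assoc u, ← hcen a u]; noncomm_ring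
    rw [h3]
    exact m.add_mem (m.mul_mem_left _ hu) (m.mul_mem_left _ hs)
  have hc₁ : algebraMap A R a₁ ∉ m := fun h1 => hc (by
    rw [map_mul, hcen]; exact m.mul_mem_left _ h1)
  have hc₂ : algebraMap A R a₂ ∉ m := fun h1 => hc (by
    rw [map_mul]; exact m.mul_mem_left _ h1)
  -- the kernel of `ψ` is contained in `m`
  have hker : ∀ n : R, ψ n = 0 → n ∈ m := by
    intro n hn0
    by_contra hnm
    obtain ⟨u, hu⟩ := exists_one_sub hm hnm
    have hun : ψ (u * n) = 0 := by rw [map_mul, hn0, mul_zero]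
    obtain ⟨e, he⟩ := hn (u * n) hun
    have hpow : ∀ k : ℕ, 1 - (u * n) ^ k ∈ m := by
      intro k
      induction k with
      | zero => simp
      | succ k ih =>
        have h4 : 1 - (u * n) ^ (k + 1) = (1 - (u * n) ^ k) + (u * n) ^ k * (1 - u * n) := by
          rw [pow_succ]; noncomm_ring
        rw [h4]
        exact m.add_mem ih (m.mul_mem_left _ hu)
    refine hc₁ ?_
    have h5 : algebraMap A R a₁ = algebraMap A R a₁ * (1 - (u * n) ^ e) := by
      rw [mul_sub, mul_one, ← Algebra.smul_def, he, sub_zero]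
    rw [h5]
    exact m.mul_mem_left _ (hpow e)
  have h6 : ψ (algebraMap A R a₂ * x - j) = 0 := by
    rw [map_sub, map_mul, hj', sub_self]
  have h7 := hker _ h6
  have h8 : algebraMap A R a₂ * x ∈ m := by
    have := m.add_mem h7 (hJm' hj)
    rwa [sub_add_cancel] at this
  exact hprime a₂ x hc₂ h8

theorem step (A R : Type) [CommRing A] [IsNoetherianRing A] [Ring R] [Algebra A R]
    [Module.Finite A R] (J₀ : Ideal R) (y x : R) : ∃ (r : R) (c : A), c ∈ W A ∧
    ∀ m : Ideal R, m.IsMaximal → J₀ ≤ m → y + r * x ∈ m → algebraMap A R c ∉ m → x ∈ m := by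
  obtain ⟨T, _, _, ψ, h, hnil⟩ := exists_gen A R
  exact step_T h hnil J₀ y x

section

variable {A R : Type} [CommRing A] [Ring R] [Algebra A R]

theorem twoSided (I : Ideal A) : (I.map (algebraMap A R)).IsTwoSided := by
  refine ⟨fun {a} b ha => ?_⟩
  induction ha using Submodule.span_induction with
  | mem x hx =>
    obtain ⟨i, hi, rfl⟩ := hx
    rw [Algebra.commutes]
    exact Ideal.mul_mem_left _ _ (Ideal.mem_map_of_mem _ hi)
  | zero => rw [zero_mul]; exact Ideal.zero_mem _
  | add x y _ _ hx hy => rw [add_mul]; exact Ideal.add_mem _ hx hy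
  | smul r x _ hx => rw [smul_eq_mul, mul_assoc]; exact Ideal.mul_mem_left _ _ hx

variable [IsNoetherianRing A] [Module.Finite A R]

theorem step_I (I : Ideal A) (J₀ : Ideal R) (y x : R) : ∃ (r : R) (c : A),
    (∀ P ∈ I.minimalPrimes, c ∉ P) ∧ ∀ m : Ideal R, m.IsMaximal → I.map (algebraMap A R) ≤ m →
      J₀ ≤ m → y + r * x ∈ m → algebraMap A R c ∉ m → x ∈ m := by
  have h2s : (I.map (algebraMap A R)).IsTwoSided := twoSided I
  let π : R →+* R ⧸ I.map (algebraMap A R) := Ideal.Quotient.mk _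
  have hπ : Function.Surjective π := Ideal.Quotient.mk_surjective
  let q : A ⧸ I →+* R ⧸ I.map (algebraMap A R) :=
    Ideal.Quotient.lift I (π.comp (algebraMap A R)) (fun a ha => by
      rw [RingHom.comp_apply]
      exact Ideal.Quotient.eq_zero_iff_mem.2 (Ideal.mem_map_of_mem _ ha))
  have hq : ∀ a, q (Ideal.Quotient.mk I a) = π (algebraMap A R a) := fun a => rfl
  let alg : Algebra (A ⧸ I) (R ⧸ I.map (algebraMap A R)) := RingHom.toAlgebra' q (by
    intro c t
    obtain ⟨a, rfl⟩ := Ideal.Quotient.mk_surjective c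
    obtain ⟨s, rfl⟩ := hπ t
    rw [hq, ← map_mul, ← map_mul, Algebra.commutes])
  have halg : ∀ a, algebraMap (A ⧸ I) (R ⧸ I.map (algebraMap A R)) (Ideal.Quotient.mk I a) =
    π (algebraMap A R a) := fun a => rfl
  have hfin : Module.Finite (A ⧸ I) (R ⧸ I.map (algebraMap A R)) := by
    classical
    obtain ⟨s, hs⟩ := (Module.Finite.fg_top : (⊤ : Submodule A R).FG)
    refine ⟨⟨s.image π, ?_⟩⟩
    rw [eq_top_iff]
    intro t _
    obtain ⟨r, rfl⟩ := hπ t
    have hr : r ∈ Submodule.span A (s : Set R) := by rw [hs]; trivial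
    induction hr using Submodule.span_induction with
    | mem x hx => exact Submodule.subset_span (by simpa using ⟨x, hx, rfl⟩)
    | zero => rw [map_zero]; exact Submodule.zero_mem _
    | add x y _ _ hx hy => rw [map_add]; exact Submodule.add_mem _ (hx trivial) (hy trivial)
    | smul a x _ hx =>
      have : π (a • x) = (Ideal.Quotient.mk I a) • π x := by
        rw [Algebra.smul_def, Algebra.smul_def, halg, map_mul]
      rw [this]
      exact Submodule.smul_mem _ _ (hx trivial)
  obtain ⟨r', c', hc', h⟩ := step (A ⧸ I) (R ⧸ I.map (algebraMap A R)) (J₀.map π) (π y) (π x)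
  obtain ⟨r, rfl⟩ := hπ r'
  obtain ⟨c, rfl⟩ := Ideal.Quotient.mk_surjective c'
  refine ⟨r, c, ?_, fun m hm hI hJ hy hc => ?_⟩
  · intro P hP hcP
    rw [Ideal.minimalPrimes_eq_comap] at hP
    obtain ⟨P', hP', rfl⟩ := hP
    exact hc' P' hP' hcP
  · have hker : RingHom.ker π ≤ m := by
      intro s hs
      exact hI (Ideal.Quotient.eq_zero_iff_mem.1 hs)
    have hcm : (m.map π).comap π = m := by
      rw [Ideal.comap_map_of_surjective π hπ]
      exact sup_eq_left.2 hker
    have hmax : (m.map π).IsMaximal := by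
      rcases Ideal.map_eq_top_or_isMaximal_of_surjective π hπ hm with h1 | h1
      · exfalso
        rw [h1, Ideal.comap_top] at hcm
        exact hm.ne_top hcm.symm
      · exact h1
    have h1 := h (m.map π) hmax (Ideal.map_mono hJ)
      (by rw [← map_mul, ← map_add]; exact Ideal.mem_map_of_mem _ hy)
      (fun h2 => hc (by rw [halg] at h2; rw [← hcm]; exact h2))
    rw [← hcm]
    exact h1

theorem main {d : ℕ} (hd : ∀ p : Ideal A, p.IsPrime → p.height ≤ d) (k : ℕ) : ∀ (I : Ideal A),
    (∀ P : Ideal A, P.IsPrime → I ≤ P → ((d + 1 : ℕ) : ℕ∞) ≤ P.height + k) →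
    ∀ (J₀ : Ideal R) (y : Fin k → R) (x : R),
    J₀ ⊔ Ideal.span (Set.range y) ⊔ Ideal.span {x} ⊔ I.map (algebraMap A R) = ⊤ →
    ∃ t : Fin k → R, J₀ ⊔ Ideal.span (Set.range fun i => y i + t i * x) ⊔
      I.map (algebraMap A R) = ⊤ := by
  induction k with
  | zero =>
    intro I hI J₀ y x _
    refine ⟨fun i => i.elim0, ?_⟩
    have : I = ⊤ := by
      by_contra hne
      obtain ⟨P, hP, hle⟩ := I.exists_le_maximal hne
      have h1 := hI P hP.isPrime hle
      have h2 := hd P hP.isPrime
      rw [Nat.cast_zero, add_zero] at h1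
      have h3 := h1.trans h2
      rw [Nat.cast_le] at h3
      omega
    rw [this, Ideal.map_top, sup_top_eq]
  | succ k ih =>
    intro I hI J₀ y x hy
    obtain ⟨r, c, hc, hstep⟩ := step_I I J₀ (y 0) x
    have hI' : ∀ P : Ideal A, P.IsPrime → I ⊔ Ideal.span {c} ≤ P →
        ((d + 1 : ℕ) : ℕ∞) ≤ P.height + k := by
      intro P hP hle
      obtain ⟨Q, hQ, hQP⟩ := Ideal.exists_minimalPrimes_le (le_sup_left.trans hle)
      have hQp : Q.IsPrime := hQ.1.1
      have hcP : c ∈ P := hle ((le_sup_right : Ideal.span {c} ≤ I ⊔ Ideal.span {c})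
        (Ideal.mem_span_singleton_self c))
      have hlt : Q < P := lt_of_le_of_ne hQP fun h => hc Q hQ (h ▸ hcP)
      have h1 := hI Q hQp hQ.1.2
      have h3 : Q.height + 1 ≤ P.height := Ideal.height_add_one_le_of_lt_of_isPrime hlt
      calc ((d + 1 : ℕ) : ℕ∞) ≤ Q.height + (k + 1 : ℕ) := h1
        _ = Q.height + 1 + k := by push_cast; ring
        _ ≤ P.height + k := by gcongr
    let J₁ : Ideal R := J₀ ⊔ Ideal.span {y 0 + r * x}
    have hr0 : ∀ m : Ideal R, J₁ ≤ m → x ∈ m → J₀ ≤ m ∧ y 0 ∈ m := by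
      intro m hm hx
      refine ⟨le_sup_left.trans hm, ?_⟩
      have h1 : y 0 + r * x ∈ m := hm ((le_sup_right : Ideal.span {y 0 + r * x} ≤ J₁)
        (Ideal.mem_span_singleton_self _))
      have h2 := m.sub_mem h1 (m.mul_mem_left r hx)
      rwa [add_sub_cancel_right] at h2
    have hall : ∀ m : Ideal R, J₁ ≤ m → (∀ i : Fin k, y i.succ ∈ m) → x ∈ m →
        I.map (algebraMap A R) ≤ m → m = ⊤ := by
      intro m hm hys hx hIm
      obtain ⟨h1, h2⟩ := hr0 m hm hx
      rw [eq_top_iff, ← hy]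
      refine sup_le (sup_le (sup_le h1 ?_) ((Ideal.span_singleton_le_iff_mem _).2 hx)) hIm
      rw [Ideal.span_le]
      rintro _ ⟨i, rfl⟩
      exact Fin.cases h2 hys i
    have hy' : J₁ ⊔ Ideal.span (Set.range fun i : Fin k => y i.succ) ⊔ Ideal.span {x} ⊔
        (I ⊔ Ideal.span {c}).map (algebraMap A R) = ⊤ := by
      refine hall _ (le_sup_of_le_left (le_sup_of_le_left le_sup_left)) (fun i => ?_) ?_ ?_
      · exact (le_sup_of_le_left (le_sup_of_le_left le_sup_right) :
          Ideal.span (Set.range fun i : Fin k => y i.succ) ≤ _) (Ideal.subset_span ⟨i, rfl⟩)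
      · exact (le_sup_of_le_left le_sup_right : Ideal.span {x} ≤ _)
          (Ideal.mem_span_singleton_self x)
      · exact (Ideal.map_mono le_sup_left).trans le_sup_right
    obtain ⟨t', ht'⟩ := ih (I ⊔ Ideal.span {c}) hI' J₁ (fun i => y i.succ) x hy'
    refine ⟨Fin.cons r t', ?_⟩
    by_contra hne
    obtain ⟨m, hm, hle⟩ := Ideal.exists_le_maximal _ hne
    have g1 : J₀ ≤ m := (le_sup_of_le_left le_sup_left).trans hle
    have g2 : I.map (algebraMap A R) ≤ m := le_sup_right.trans hle
    have g3 : ∀ i, y i + (Fin.cons r t' : Fin (k + 1) → R) i * x ∈ m := fun i =>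
      hle ((le_sup_of_le_left le_sup_right :
        Ideal.span (Set.range fun i => y i + (Fin.cons r t' : Fin (k + 1) → R) i * x) ≤ _)
          (Ideal.subset_span ⟨i, rfl⟩))
    have g4 : y 0 + r * x ∈ m := by
      have := g3 0
      rwa [Fin.cons_zero] at this
    have g5 : ∀ i : Fin k, y i.succ + t' i * x ∈ m := fun i => by
      have := g3 i.succ
      rwa [Fin.cons_succ] at this
    have g6 : J₁ ≤ m := sup_le g1 ((Ideal.span_singleton_le_iff_mem _).2 g4)
    have g7 : algebraMap A R c ∉ m := by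
      intro hcm
      refine hm.ne_top ?_
      rw [eq_top_iff, ← ht']
      refine sup_le (sup_le g6 ?_) ?_
      · rw [Ideal.span_le]
        rintro _ ⟨i, rfl⟩
        exact g5 i
      · rw [Ideal.map_le_iff_le_comap]
        refine sup_le (Ideal.map_le_iff_le_comap.1 g2) ?_
        rw [Ideal.span_singleton_le_iff_mem]
        exact hcm
    have g8 : x ∈ m := hstep m hm g2 g1 g4 g7
    refine hm.ne_top (hall m g6 (fun i => ?_) g8 g2)
    have := m.sub_mem (g5 i) (m.mul_mem_left (t' i) g8)
    rwa [add_sub_cancel_right] at this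

end

/-- Bass' stable range theorem -/
theorem bass2 (A R : Type) [CommRing A] [IsNoetherianRing A] [Ring R] [Algebra A R]
    [Module.Finite A R] (d : ℕ) (hd : ∀ p : Ideal A, p.IsPrime → p.height ≤ d)
    (y : Fin (d + 1) → R) (a : R)
    (h : ∃ (b : Fin (d + 1) → R) (c : R), ∑ i, y i * b i + a * c = 1) :
    ∃ t v : Fin (d + 1) → R, ∑ i, (y i + a * t i) * v i = 1 := by
  obtain ⟨b, c, hbc⟩ := h
  have hfin : Module.Finite A Rᵐᵒᵖ := Module.Finite.equiv (MulOpposite.opLinearEquiv A)
  obtain ⟨t, ht⟩ := main (A := A) (R := Rᵐᵒᵖ) hd (d + 1) ⊥ (fun P _ _ => by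
      exact le_add_self) ⊥ (fun i => MulOpposite.op (y i)) (MulOpposite.op a) (by
      rw [bot_sup_eq, Ideal.map_bot, sup_bot_eq, Ideal.eq_top_iff_one]
      have h1 : (1 : Rᵐᵒᵖ) = ∑ i, MulOpposite.op (b i) * MulOpposite.op (y i) +
          MulOpposite.op c * MulOpposite.op a := by
        rw [← MulOpposite.op_one, ← hbc, MulOpposite.op_add, MulOpposite.op_mul,
          Finset.op_sum]
        simp only [MulOpposite.op_mul]
      rw [h1]
      refine Submodule.add_mem_sup (Ideal.sum_mem _ fun i _ => Ideal.mul_mem_left _ _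
        (Ideal.subset_span ⟨i, rfl⟩)) (Ideal.mul_mem_left _ _ (Ideal.mem_span_singleton_self _)))
  rw [bot_sup_eq, Ideal.map_bot, sup_bot_eq, Ideal.eq_top_iff_one] at ht
  obtain ⟨v, hv⟩ := (Submodule.mem_span_range_iff_exists_fun _).1 ht
  refine ⟨fun i => (t i).unop, fun i => (v i).unop, ?_⟩
  have := congrArg MulOpposite.unop hv
  simpa [Finset.unop_sum] using this

end Vale.Agent.P246.H369
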